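import Vale.Agent.P065.MainK

namespace Vale.Agent.Results.P065.Lower
open Vale.Agent.P065

theorem result : ∃ C : ℝ, 0 < C ∧ ∃ n0 : ℕ,
    (∀ n : ℕ, n0 ≤ n → Even n → ∃ P : Finset (ℝ × ℝ), P.card = n ∧ GenPos P ∧
      (n : ℝ) * Real.exp (Real.log n * Real.exp (-C * √(Real.log (Real.log n)))) ≤ halv P) ∧
    (∀ k : ℕ, n0 ≤ k → ∀ n : ℕ, 2 * k ≤ n → ∃ P : Finset (ℝ × ℝ), P.card = n ∧ GenPos P ∧
      (n : ℝ) * Real.exp (Real.log k * Real.exp (-C * √(Real.log (Real.log k)))) ≤ ksets P k) :=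
  main2

end Vale.Agent.Results.P065.Lower
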